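import Vale.Agent.P358.AD.L0
import Vale.Agent.P358.AD.Bdd2

/-!
Concavity of the unnormalised entropy, as the special case `γ = 1`, zero off-diagonal block, of the entropy inequality `L0u`.
-/

namespace Vale.Agent.P358
open Matrix
open scoped ComplexOrder

variable {Y : Type*} [Fintype Y] [DecidableEq Y]

theorem outE_one {x t : ℝ} (hx : 0 ≤ x) (ht : 0 ≤ t) : outE 1 x t = Real.negMulLog (x + t) := by
  unfold outE lamP lamM
  have h1 : (x + 1 * t + (1 - 1) * t) ^ 2 - 4 * (1 * t * ((1 - 1) * t)) = (x + t) ^ 2 := by ring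
  rw [h1, Real.sqrt_sq (by linarith)]
  have h2 : (x + 1 * t + (1 - 1) * t + (x + t)) / 2 = x + t := by ring
  have h3 : (x + 1 * t + (1 - 1) * t - (x + t)) / 2 = 0 := by ring
  rw [h2, h3]
  simp

theorem St_add_ge34 (X Z : Matrix Y Y ℂ) (hX : X.PosSemidef) (hZ : Z.PosSemidef) :
    St X + St Z + Real.negMulLog (X.trace.re + Z.trace.re) - Real.negMulLog X.trace.re
      - Real.negMulLog Z.trace.re ≤ St (X + Z) := by
  have hw : (fromBlocks X (0 : Matrix Y Y ℂ) (0 : Matrix Y Y ℂ)ᴴ Z).PosSemidef := by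
    rw [conjTranspose_zero]
    exact posSemidef_fromBlocks_diag X Z hX hZ
  have h := L0u 1 zero_le_one le_rfl X 0 Z hw
  have hx : 0 ≤ X.trace.re := (Complex.le_def.1 hX.trace_nonneg).1
  have hz : 0 ≤ Z.trace.re := (Complex.le_def.1 hZ.trace_nonneg).1
  rw [outE_one hx hz] at h
  have hO : OmB 1 X 0 (0 : Matrix Y Y ℂ)ᴴ Z = fromBlocks (X + Z) 0 0 0 := by
    unfold OmB
    simp
  rw [hO, St_fromBlocks_diag _ _ (hX.add hZ) PosSemidef.zero, St_zero, add_zero] at h
  exact h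

end Vale.Agent.P358
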